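import Mathlib

/-!
Labelled copies versus unlabelled copies: the number of labelled copies of `F` in `G` is the
number of unlabelled copies times the number of automorphisms of `F`.
-/

namespace Vale.Agent.Lib.Helper6.P064Aut

open SimpleGraph Finset

variable {V W : Type*}

theorem toSubgraph_adj_iff {G : SimpleGraph V} {F : SimpleGraph W} (f : Copy F G) (x y : V) :
    f.toSubgraph.Adj x y ↔ ∃ a b, F.Adj a b ∧ f a = x ∧ f b = y := by
  simp [Copy.toSubgraph, Subgraph.map_adj, Relation.map_apply]

theorem toSubgraph_verts {G : SimpleGraph V} {F : SimpleGraph W} (f : Copy F G) :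
    f.toSubgraph.verts = Set.range f := by
  simp [Copy.toSubgraph, Subgraph.map_verts]

theorem comp_iso_toSubgraph {G : SimpleGraph V} {F : SimpleGraph W} (f : Copy F G)
    (φ : F ≃g F) : (f.comp φ.toCopy).toSubgraph = f.toSubgraph := by
  apply Subgraph.ext
  · rw [toSubgraph_verts, toSubgraph_verts]
    ext x
    constructor
    · rintro ⟨a, rfl⟩
      exact ⟨φ a, rfl⟩
    · rintro ⟨a, rfl⟩
      exact ⟨φ.symm a, by simp [Copy.comp_apply]⟩
  · ext x y
    rw [toSubgraph_adj_iff, toSubgraph_adj_iff]
    constructor
    · rintro ⟨a, b, hab, rfl, rfl⟩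
      exact ⟨φ a, φ b, φ.map_rel_iff.2 hab, rfl, rfl⟩
    · rintro ⟨a, b, hab, rfl, rfl⟩
      refine ⟨φ.symm a, φ.symm b, φ.symm.map_rel_iff.2 hab, ?_, ?_⟩ <;> simp [Copy.comp_apply]

theorem fiber_card [Finite W] {G : SimpleGraph V} {F : SimpleGraph W} (f : Copy F G) :
    Nat.card {g : Copy F G // g.toSubgraph = f.toSubgraph} = Nat.card (F ≃g F) := by
  symm
  apply Nat.card_congr
  refine Equiv.ofBijective (fun φ => ⟨f.comp φ.toCopy, comp_iso_toSubgraph f φ⟩) ⟨?_, ?_⟩
  · intro φ ψ h
    have h1 : f.comp φ.toCopy = f.comp ψ.toCopy := congrArg Subtype.val h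
    apply RelIso.ext
    intro a
    have h2 : (f.comp φ.toCopy) a = (f.comp ψ.toCopy) a := by rw [h1]
    rw [Copy.comp_apply, Copy.comp_apply] at h2
    exact f.injective h2
  · rintro ⟨g, hg⟩
    have hrange : Set.range g = Set.range f := by
      rw [← toSubgraph_verts, ← toSubgraph_verts, hg]
    have hex : ∀ a, ∃ b, f b = g a := by
      intro a
      have : g a ∈ Set.range f := by
        rw [← hrange]
        exact ⟨a, rfl⟩
      exact this
    choose p hp using hex
    have pinj : Function.Injective p := by
      intro a b hab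
      apply g.injective
      show g a = g b
      rw [← hp a, ← hp b, hab]
    have pbij : Function.Bijective p := ⟨pinj, Finite.injective_iff_surjective.1 pinj⟩
    have padj : ∀ a b, F.Adj (p a) (p b) ↔ F.Adj a b := by
      intro a b
      constructor
      · intro h
        have h1 : f.toSubgraph.Adj (g a) (g b) :=
          (toSubgraph_adj_iff f _ _).2 ⟨p a, p b, h, hp a, hp b⟩
        rw [← hg] at h1
        obtain ⟨a', b', hab', ha', hb'⟩ := (toSubgraph_adj_iff g _ _).1 h1
        have e1 : a' = a := g.injective ha'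
        have e2 : b' = b := g.injective hb'
        rw [← e1, ← e2]
        exact hab'
      · intro h
        have h1 : g.toSubgraph.Adj (g a) (g b) :=
          (toSubgraph_adj_iff g _ _).2 ⟨a, b, h, rfl, rfl⟩
        rw [hg] at h1
        obtain ⟨a', b', hab', ha', hb'⟩ := (toSubgraph_adj_iff f _ _).1 h1
        have e1 : a' = p a := f.injective (ha'.trans (hp a).symm)
        have e2 : b' = p b := f.injective (hb'.trans (hp b).symm)
        rw [← e1, ← e2]
        exact hab'
    refine ⟨⟨Equiv.ofBijective p pbij, fun {a b} => padj a b⟩, ?_⟩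
    apply Subtype.ext
    apply Copy.ext
    intro a
    show (f.comp _) a = g a
    rw [Copy.comp_apply]
    exact hp a

theorem labelled_eq_copyCount_mul_aut {V W : Type*} [Fintype V] [Fintype W]
    (G : SimpleGraph V) (F : SimpleGraph W) :
    G.labelledCopyCount F = G.copyCount F * Nat.card (F ≃g F) := by
  classical
  have h1 : G.labelledCopyCount F = Fintype.card (Copy F G) := by
    unfold labelledCopyCount
    exact Fintype.card_congr (Equiv.refl _)
  rw [h1, copyCount_eq_card_image_copyToSubgraph, ← Finset.card_univ,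
    Finset.card_eq_sum_card_image (Copy.toSubgraph) (Finset.univ : Finset (Copy F G))]
  rw [Finset.sum_const_nat (m := Nat.card (F ≃g F))]
  intro S hS
  obtain ⟨f, -, rfl⟩ := Finset.mem_image.1 hS
  rw [← fiber_card f, Nat.card_eq_fintype_card, Fintype.card_subtype]

end Vale.Agent.Lib.Helper6.P064Aut
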