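import Vale.Agent.Lib.P064T.Defs

/-!
Counting labelled copies of a graph with separated closed stars (twin, helper6).
-/

namespace Vale.Agent.Lib.Helper6.P064Count

open Finset SimpleGraph

/-- The target of the restriction map: for every vertex `c` of `C` an image vertex `v` and an
injection of the neighbours of `c` into the neighbours of `v`. -/
abbrev Tgt {n : ℕ} (F H : SimpleGraph (Fin n)) (C : Finset (Fin n)) : Type :=
  (c : {c // c ∈ C}) → (Σ v : Fin n, ({w // F.Adj c.1 w} ↪ {y // H.Adj v y}))

/-- The restriction of a copy to the closed stars of the vertices of `C`. -/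
def psi {n : ℕ} (F H : SimpleGraph (Fin n)) (C : Finset (Fin n)) (f : Copy F H) : Tgt F H C :=
  fun c => ⟨f c.1, ⟨fun w => ⟨f w.1, f.toHom.map_adj w.2⟩,
    fun _ _ h => Subtype.ext (f.injective (congrArg Subtype.val h))⟩⟩

theorem ncard_nbr {n : ℕ} (G : SimpleGraph (Fin n)) (c : Fin n) [Fintype {w // G.Adj c w}] :
    (G.neighborSet c).ncard = Fintype.card {w // G.Adj c w} := by
  rw [← Nat.card_coe_set_eq]
  show Nat.card {w // G.Adj c w} = _
  exact Nat.card_eq_fintype_card

theorem count_of_separated {n : ℕ} (F H : SimpleGraph (Fin n)) (C : Finset (Fin n))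
    (hsep : ∀ c ∈ C, ∀ c' ∈ C, c ≠ c' → (¬ F.Adj c c') ∧ ∀ w, F.Adj c w → ¬ F.Adj c' w) :
    (∑ c ∈ C, ((F.neighborSet c).ncard + 1)) ≤ n ∧
    H.labelledCopyCount F ≤ (∏ c ∈ C, ∑ v : Fin n,
        ((H.neighborSet v).ncard).descFactorial ((F.neighborSet c).ncard)) *
      (n - ∑ c ∈ C, ((F.neighborSet c).ncard + 1)).factorial := by
  classical
  let nb : Fin n → Finset (Fin n) := fun c => univ.filter (fun w => F.Adj c w)
  have hnb : ∀ c w, w ∈ nb c ↔ F.Adj c w := by
    intro c w
    simp [nb]
  have hkF : ∀ c, (F.neighborSet c).ncard = (nb c).card := by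
    intro c
    rw [ncard_nbr F c, Fintype.card_subtype]
  let W0 : Finset (Fin n) := C.biUnion (fun c => insert c (nb c))
  have hdisj : ∀ c ∈ C, ∀ c' ∈ C, c ≠ c' → Disjoint (insert c (nb c)) (insert c' (nb c')) := by
    intro c hc c' hc' hne
    rw [Finset.disjoint_left]
    intro x hx hx'
    rw [Finset.mem_insert, hnb] at hx hx'
    rcases hx with hx | hx
    · rcases hx' with hx' | hx'
      · exact hne (hx.symm.trans hx')
      · rw [hx] at hx'
        exact (hsep c hc c' hc' hne).1 hx'.symm
    · rcases hx' with hx' | hx'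
      · rw [hx'] at hx
        exact (hsep c hc c' hc' hne).1 hx
      · exact (hsep c hc c' hc' hne).2 x hx hx'
  have hW0 : W0.card = ∑ c ∈ C, ((F.neighborSet c).ncard + 1) := by
    rw [Finset.card_biUnion hdisj]
    refine Finset.sum_congr rfl (fun c _ => ?_)
    rw [Finset.card_insert_of_notMem, hkF]
    rw [hnb]
    exact F.loopless.irrefl c
  have hW0n : W0.card ≤ n := by
    simpa using Finset.card_le_univ W0
  rw [← hW0]
  refine ⟨hW0n, ?_⟩
  -- two copies with the same restriction agree on W0
  have hagree : ∀ f f0 : Copy F H, psi F H C f = psi F H C f0 → ∀ a ∈ W0, f a = f0 a := by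
    intro f f0 h a ha
    obtain ⟨c, hc, hac⟩ := Finset.mem_biUnion.1 ha
    rw [Finset.mem_insert, hnb] at hac
    rcases hac with hac | hac
    · have h1 := congrArg (fun b : Tgt F H C => (b ⟨c, hc⟩).1) h
      rw [hac]
      exact h1
    · have h1 := congrArg (fun b : Tgt F H C => ((b ⟨c, hc⟩).2 ⟨a, hac⟩).1) h
      exact h1
  -- every fibre of the restriction map is small
  have hfib : ∀ b : Tgt F H C,
      Fintype.card {f : Copy F H // psi F H C f = b} ≤ (n - W0.card).factorial := by
    intro b
    by_cases hemp : IsEmpty {f : Copy F H // psi F H C f = b}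
    · rw [Fintype.card_eq_zero]
      exact Nat.zero_le _
    · rw [not_isEmpty_iff] at hemp
      obtain ⟨f0, hf0⟩ := hemp
      let g : {f : Copy F H // psi F H C f = b} →
          ({a // a ∉ W0} ↪ {y // y ∉ W0.image f0}) := fun f =>
        ⟨fun a => ⟨f.1 a.1, by
            intro hmem
            obtain ⟨w, hw, hfw⟩ := Finset.mem_image.1 hmem
            have h1 : f.1 w = f0 w := hagree f.1 f0 (f.2.trans hf0.symm) w hw
            have h2 : w = a.1 := f.1.injective (h1.trans hfw)
            exact a.2 (h2 ▸ hw)⟩,
          fun a a' h => Subtype.ext (f.1.injective (congrArg Subtype.val h))⟩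
      have hg : Function.Injective g := by
        intro f f' h
        apply Subtype.ext
        apply Copy.ext
        intro a
        by_cases ha : a ∈ W0
        · exact (hagree f.1 f0 (f.2.trans hf0.symm) a ha).trans
            (hagree f'.1 f0 (f'.2.trans hf0.symm) a ha).symm
        · have h1 := congrArg
            (fun e : ({a // a ∉ W0} ↪ {y // y ∉ W0.image f0}) => (e ⟨a, ha⟩).1) h
          exact h1
      have hc1 : Fintype.card {a // a ∉ W0} = n - W0.card := by
        rw [Fintype.card_subtype_compl, Fintype.card_fin, Fintype.card_coe]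
      have hc2 : Fintype.card {y // y ∉ W0.image f0} = n - W0.card := by
        rw [Fintype.card_subtype_compl, Fintype.card_fin, Fintype.card_coe,
          Finset.card_image_of_injective W0 (show Function.Injective (⇑f0) from f0.injective)]
      calc Fintype.card {f : Copy F H // psi F H C f = b}
          ≤ Fintype.card ({a // a ∉ W0} ↪ {y // y ∉ W0.image f0}) :=
            Fintype.card_le_of_injective g hg
        _ = (n - W0.card).factorial := by
            rw [Fintype.card_embedding_eq, hc1, hc2, Nat.descFactorial_self]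
  -- the size of the target
  have hB : Fintype.card (Tgt F H C) = ∏ c ∈ C, ∑ v : Fin n,
      ((H.neighborSet v).ncard).descFactorial ((F.neighborSet c).ncard) := by
    rw [Fintype.card_pi,
      ← Finset.prod_coe_sort C (fun c => ∑ v : Fin n,
        ((H.neighborSet v).ncard).descFactorial ((F.neighborSet c).ncard))]
    refine Finset.prod_congr rfl (fun c _ => ?_)
    rw [Fintype.card_sigma]
    refine Finset.sum_congr rfl (fun v _ => ?_)
    rw [Fintype.card_embedding_eq, ncard_nbr H v, ncard_nbr F c.1]
  have hlab : H.labelledCopyCount F = Nat.card (Copy F H) := by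
    unfold labelledCopyCount
    exact Fintype.card_eq_nat_card
  rw [hlab, Nat.card_eq_fintype_card, ← hB]
  calc Fintype.card (Copy F H)
      = Fintype.card (Σ b : Tgt F H C, {f : Copy F H // psi F H C f = b}) :=
        Fintype.card_congr (Equiv.sigmaFiberEquiv (psi F H C)).symm
    _ = ∑ b : Tgt F H C, Fintype.card {f : Copy F H // psi F H C f = b} := Fintype.card_sigma
    _ ≤ ∑ _b : Tgt F H C, (n - W0.card).factorial := Finset.sum_le_sum (fun b _ => hfib b)
    _ = Fintype.card (Tgt F H C) * (n - W0.card).factorial := by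
        rw [Finset.sum_const, Finset.card_univ, smul_eq_mul]

end Vale.Agent.Lib.Helper6.P064Count
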