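import Mathlib
import Vale.Agent.Lib.Helper7.P064M
import Vale.Agent.Lib.Helper2.P064U
import Vale.Agent.Lib.P064B.Pieces
import Vale.Agent.Lib.P064B.Components
import Vale.Agent.Lib.P064D.RootedTotal

/-!
P064, package general hosts and forests, piece D6 (twin): labelled copies of a forest `F` in a
host `H` of maximum degree at most `D`.  The components of `F` with at least two vertices are
trees; a tree piece on `w` vertices has at most `n D^(w-1)` labelled copies (D4), the pieces are
restricted independently (B5, B6), and `n^v ≤ e^v (n)_v`.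
-/

namespace Vale.Agent.Lib.Helper6.P064DForest
open SimpleGraph Finset

/-- A connected induced piece of a forest is a tree (own copy of D5). -/
theorem tree_piece_edges {V : Type} [Fintype V] [DecidableEq V] (F : SimpleGraph V)
    (hF : F.IsAcyclic) (W : Finset V) (hW : (F.induce (W : Set V)).Connected) :
    (F.induce (W : Set V)).edgeSet.ncard + 1 = W.card := by
  classical
  have ht : (F.induce (W : Set V)).IsTree := ⟨hW, hF.induce _⟩
  have h1 := ht.card_edgeFinset
  rw [← Set.ncard_coe_finset, coe_edgeFinset] at h1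
  rw [h1]
  simp

/-- D6 (twin): labelled copies of a forest in a host of maximum degree at most `D`. -/
theorem forest_labelled {n : ℕ} (H : SimpleGraph (Fin n)) (D : ℕ)
    (hD : ∀ v, (H.neighborSet v).ncard ≤ D) (F : SimpleGraph (Fin n)) (hF : F.IsAcyclic) :
    (H.labelledCopyCount F : ℝ) ≤
      (n.factorial : ℝ) * (Real.exp 2 * (D : ℝ) / (n : ℝ)) ^ F.edgeSet.ncard := by
  classical
  have hle := Vale.Agent.Lib.Helper7.P064M.labelled_le_desc H F
  rw [Fintype.card_fin, Nat.descFactorial_self] at hle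
  have hle' : (H.labelledCopyCount F : ℝ) ≤ (n.factorial : ℝ) := by
    exact_mod_cast hle
  rcases Nat.eq_zero_or_pos F.edgeSet.ncard with he | he
  · rw [he, pow_zero, mul_one]
    exact hle'
  have hn : 0 < n := by
    rcases Nat.eq_zero_or_pos n with h0 | h0
    · subst h0
      have hempty : F.edgeSet = ∅ := Set.eq_empty_of_isEmpty _
      rw [hempty, Set.ncard_empty] at he
      exact absurd he (lt_irrefl 0)
    · exact h0
  have hnr : (0 : ℝ) < (n : ℝ) := by exact_mod_cast hn
  obtain ⟨m, W, hdisj, hconn, hcard, hsum⟩ := Vale.Agent.Lib.P064B.exists_pieces F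
  have hB5 := Vale.Agent.Lib.P064B.count_of_pieces F H W hdisj
  rw [Fintype.card_fin] at hB5
  -- each piece is a tree
  have htree : ∀ i : Fin m, (F.induce (W i : Set (Fin n))).edgeSet.ncard + 1 = (W i).card :=
    fun i => tree_piece_edges F hF (W i) (hconn i)
  have hpiece : ∀ i : Fin m,
      (H.labelledCopyCount (F.induce (W i : Set (Fin n))) : ℝ) ≤
        (n : ℝ) * (D : ℝ) ^ (F.induce (W i : Set (Fin n))).edgeSet.ncard := by
    intro i
    have hc : Fintype.card (↥(W i : Set (Fin n))) = (W i).card := by simp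
    have hp := Vale.Agent.Lib.P064D.labelled_le_rooted (F.induce (W i : Set (Fin n))) (hconn i)
      H D hD
    rw [hc] at hp
    have he1 : (W i).card - 1 = (F.induce (W i : Set (Fin n))).edgeSet.ncard := by
      have := htree i
      omega
    rw [he1] at hp
    exact_mod_cast hp
  -- the total number of vertices of the pieces
  have hv : ∑ i, (W i).card ≤ n := by
    have h2 : (Finset.univ.biUnion W).card = ∑ i, (W i).card :=
      Finset.card_biUnion (fun i _ j _ hij => hdisj i j hij)
    rw [← h2]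
    exact le_trans (Finset.card_le_univ _) (by simp)
  have hvsum : ∑ i, (W i).card = F.edgeSet.ncard + m := by
    rw [← hsum, ← Finset.sum_congr rfl (fun i _ => htree i), Finset.sum_add_distrib]
    simp
  have hm : m ≤ F.edgeSet.ncard := by
    rw [← hsum]
    have h1 : ∀ i : Fin m, 1 ≤ (F.induce (W i : Set (Fin n))).edgeSet.ncard := by
      intro i
      have := htree i
      have := hcard i
      omega
    calc m = ∑ _i : Fin m, 1 := by simp
      _ ≤ ∑ i, (F.induce (W i : Set (Fin n))).edgeSet.ncard :=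
        Finset.sum_le_sum (fun i _ => h1 i)
  set v := ∑ i, (W i).card with hvdef
  set e := F.edgeSet.ncard with hedef
  have hB5' : (H.labelledCopyCount F : ℝ) ≤
      (∏ i, (H.labelledCopyCount (F.induce (W i : Set (Fin n))) : ℝ))
        * ((n - v).factorial : ℝ) := by
    exact_mod_cast hB5
  have hprod : ∏ i, (H.labelledCopyCount (F.induce (W i : Set (Fin n))) : ℝ)
      ≤ ∏ i, ((n : ℝ) * (D : ℝ) ^ (F.induce (W i : Set (Fin n))).edgeSet.ncard) :=
    Finset.prod_le_prod (fun i _ => Nat.cast_nonneg _) (fun i _ => hpiece i)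
  have hprod2 : ∏ i : Fin m, ((n : ℝ) * (D : ℝ) ^ (F.induce (W i : Set (Fin n))).edgeSet.ncard)
      = (n : ℝ) ^ m * (D : ℝ) ^ e := by
    rw [Finset.prod_mul_distrib, Finset.prod_pow_eq_pow_sum, hsum]
    simp
  have hpow : (n : ℝ) ^ v ≤ Real.exp v * (n.descFactorial v : ℝ) :=
    Vale.Agent.Lib.Helper2.P064U.pow_le_exp_mul_descFactorial n v hv
  have hexp : Real.exp v ≤ Real.exp 2 ^ e := by
    rw [← Real.exp_nat_mul]
    apply Real.exp_le_exp.mpr
    have : (v : ℝ) = (e : ℝ) + (m : ℝ) := by exact_mod_cast hvsum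
    have hm' : (m : ℝ) ≤ (e : ℝ) := by exact_mod_cast hm
    linarith
  have hfact : ((n - v).factorial : ℝ) * (n.descFactorial v : ℝ) = (n.factorial : ℝ) := by
    exact_mod_cast Nat.factorial_mul_descFactorial hv
  have hf0 : (0 : ℝ) ≤ ((n - v).factorial : ℝ) := Nat.cast_nonneg _
  have hd0 : (0 : ℝ) ≤ (n.descFactorial v : ℝ) := Nat.cast_nonneg _
  have hDn : (0 : ℝ) ≤ ((D : ℝ) / (n : ℝ)) ^ e := by positivity
  have hsplit : (n : ℝ) ^ m * (D : ℝ) ^ e = (n : ℝ) ^ v * ((D : ℝ) / (n : ℝ)) ^ e := by
    rw [hvsum, pow_add, div_pow]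
    field_simp
  calc (H.labelledCopyCount F : ℝ)
      ≤ (∏ i, (H.labelledCopyCount (F.induce (W i : Set (Fin n))) : ℝ))
        * ((n - v).factorial : ℝ) := hB5'
    _ ≤ ((n : ℝ) ^ m * (D : ℝ) ^ e) * ((n - v).factorial : ℝ) := by
        rw [← hprod2]
        exact mul_le_mul_of_nonneg_right hprod hf0
    _ = ((n : ℝ) ^ v * ((D : ℝ) / (n : ℝ)) ^ e) * ((n - v).factorial : ℝ) := by rw [hsplit]
    _ ≤ ((Real.exp 2 ^ e * (n.descFactorial v : ℝ)) * ((D : ℝ) / (n : ℝ)) ^ e)
        * ((n - v).factorial : ℝ) := by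
        refine mul_le_mul_of_nonneg_right (mul_le_mul_of_nonneg_right ?_ hDn) hf0
        exact le_trans hpow (mul_le_mul_of_nonneg_right hexp hd0)
    _ = (n.factorial : ℝ) * (Real.exp 2 * (D : ℝ) / (n : ℝ)) ^ e := by
        rw [← hfact, mul_div_assoc, mul_pow]
        ring

end Vale.Agent.Lib.Helper6.P064DForest
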