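import Vale.Agent.Lib.P064B.Host
import Vale.Agent.Lib.P064D.Degree
import Vale.Agent.Lib.Helper6.P064DForest

/-!
P064, package general hosts and forests, pieces D7 and D8 (twins): the counting inequality for
forests `F` in an arbitrary host, and the threshold comparison for forest hosts.
-/

namespace Vale.Agent.Lib.Helper6.P064DForest
open SimpleGraph Finset
open Vale.Agent.Lib.Helper7.P064M

theorem exp_two_le_eight : Real.exp 2 ≤ 8 := by
  have h1 := Real.exp_one_lt_d9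
  have h0 := Real.exp_pos 1
  have h2 : Real.exp 2 = Real.exp 1 * Real.exp 1 := by
    rw [← Real.exp_add]
    norm_num
  rw [h2]
  nlinarith

/-- D7 (twin): counting inequality for forests `F` in an arbitrary host. -/
theorem forest_copies {n : ℕ} (H : SimpleGraph (Fin n)) (q : ℝ) (hq0 : 0 ≤ q)
    (hyp : ∀ F : SimpleGraph (Fin n), F ≤ H →
      1 ≤ ((⊤ : SimpleGraph (Fin n)).copyCount F : ℝ) * q ^ F.edgeSet.ncard)
    (F : SimpleGraph (Fin n)) (hF : F.IsAcyclic) :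
    (H.copyCount F : ℝ) ≤
      ((⊤ : SimpleGraph (Fin n)).copyCount F : ℝ) *
        (min 1 (8 * (6 * q + (1 + (Nat.log 2 n : ℝ)) / (n : ℝ)))) ^ F.edgeSet.ncard := by
  by_cases h1 : 1 ≤ 8 * (6 * q + (1 + (Nat.log 2 n : ℝ)) / (n : ℝ))
  · rw [min_eq_left h1, one_pow, mul_one]
    exact copyCount_le_top H F
  rw [min_eq_right (le_of_not_ge h1)]
  rcases Nat.eq_zero_or_pos F.edgeSet.ncard with he | he
  · rw [he, pow_zero, mul_one]
    exact copyCount_le_top H F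
  have hn : 0 < n := by
    rcases Nat.eq_zero_or_pos n with h0 | h0
    · subst h0
      have hempty : F.edgeSet = ∅ := Set.eq_empty_of_isEmpty _
      rw [hempty, Set.ncard_empty] at he
      exact absurd he (lt_irrefl 0)
    · exact h0
  have hnr : (0 : ℝ) < (n : ℝ) := by exact_mod_cast hn
  have hD := Vale.Agent.Lib.P064D.degree_le_of_hyp H q hq0 hyp
  have h6 := forest_labelled H _ hD F hF
  refine copies_of_labelled H ⊤ F _ ?_
  rw [labelled_top, Fintype.card_fin, Nat.descFactorial_self]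
  refine le_trans h6 (mul_le_mul_of_nonneg_left ?_ (Nat.cast_nonneg _))
  refine pow_le_pow_left₀ (by positivity) ?_ _
  -- the degree bound as a real number
  have hceil : ((⌈6 * (n : ℝ) * q⌉₊ : ℕ) : ℝ) < 6 * (n : ℝ) * q + 1 :=
    Nat.ceil_lt_add_one (by positivity)
  have hmax : ((max ⌈6 * (n : ℝ) * q⌉₊ (Nat.log 2 n) : ℕ) : ℝ)
      ≤ 6 * (n : ℝ) * q + 1 + (Nat.log 2 n : ℝ) := by
    have hl : (0 : ℝ) ≤ (Nat.log 2 n : ℝ) := Nat.cast_nonneg _
    have hc0 : (0 : ℝ) ≤ ((⌈6 * (n : ℝ) * q⌉₊ : ℕ) : ℝ) := Nat.cast_nonneg _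
    rw [Nat.cast_max]
    exact max_le (by linarith) (by nlinarith)
  have hdiv : ((max ⌈6 * (n : ℝ) * q⌉₊ (Nat.log 2 n) : ℕ) : ℝ) / (n : ℝ)
      ≤ 6 * q + (1 + (Nat.log 2 n : ℝ)) / (n : ℝ) := by
    rw [div_le_iff₀ hnr]
    have : (6 * q + (1 + (Nat.log 2 n : ℝ)) / (n : ℝ)) * (n : ℝ)
        = 6 * (n : ℝ) * q + 1 + (Nat.log 2 n : ℝ) := by
      field_simp
      ring
    rw [this]
    exact hmax
  have hd0 : (0 : ℝ) ≤ ((max ⌈6 * (n : ℝ) * q⌉₊ (Nat.log 2 n) : ℕ) : ℝ) / (n : ℝ) := by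
    positivity
  have he8 := exp_two_le_eight
  have he0 := Real.exp_pos 2
  calc Real.exp 2 * ((max ⌈6 * (n : ℝ) * q⌉₊ (Nat.log 2 n) : ℕ) : ℝ) / (n : ℝ)
      = Real.exp 2 * (((max ⌈6 * (n : ℝ) * q⌉₊ (Nat.log 2 n) : ℕ) : ℝ) / (n : ℝ)) := by ring
    _ ≤ 8 * (((max ⌈6 * (n : ℝ) * q⌉₊ (Nat.log 2 n) : ℕ) : ℝ) / (n : ℝ)) :=
        mul_le_mul_of_nonneg_right he8 hd0
    _ ≤ 8 * (6 * q + (1 + (Nat.log 2 n : ℝ)) / (n : ℝ)) :=
        mul_le_mul_of_nonneg_left hdiv (by norm_num)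

/-- D8 (twin): threshold form for forest hosts. -/
theorem forest_threshold {n : ℕ} (H : SimpleGraph (Fin n)) (hH : H.IsAcyclic) :
    fracExpThreshold H ≤ 96 * expThreshold H + 8 * (1 + (Nat.log 2 n : ℝ)) / (n : ℝ) := by
  have hL : (0 : ℝ) ≤ (1 + (Nat.log 2 n : ℝ)) / (n : ℝ) := by positivity
  have key : ∀ q ∈ {p : ℝ | 0 ≤ p ∧ p ≤ 1 ∧
      ∀ F : SimpleGraph (Fin n), F ≤ H → 1 / 2 ≤ expCopies F p},
      fracExpThreshold H ≤ 96 * q + 8 * (1 + (Nat.log 2 n : ℝ)) / (n : ℝ) := by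
    intro q hq
    obtain ⟨hq0, -, hq2⟩ := hq
    have hq'0 : 0 ≤ min 1 (2 * q) := le_min zero_le_one (by positivity)
    have hyp' := hyp_double H q hq0 hq2
    have hx0 : 0 ≤ 8 * (6 * min 1 (2 * q) + (1 + (Nat.log 2 n : ℝ)) / (n : ℝ)) := by
      positivity
    have hmem : min 1 (8 * (6 * min 1 (2 * q) + (1 + (Nat.log 2 n : ℝ)) / (n : ℝ))) ∈
        {p : ℝ | 0 ≤ p ∧ p ≤ 1 ∧
          ∀ F : SimpleGraph (Fin n), F ≤ H → (H.copyCount F : ℝ) / 2 ≤ expCopies F p} := by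
      refine ⟨le_min zero_le_one hx0, min_le_left _ _, fun F hFle => ?_⟩
      have h1 := forest_copies H (min 1 (2 * q)) hq'0 hyp' F (hH.anti hFle)
      have h0 : (0 : ℝ) ≤ (H.copyCount F : ℝ) := Nat.cast_nonneg _
      unfold expCopies
      linarith
    have h2 : min 1 (2 * q) ≤ 2 * q := min_le_right _ _
    have h3 : 8 * (6 * min 1 (2 * q) + (1 + (Nat.log 2 n : ℝ)) / (n : ℝ))
        ≤ 96 * q + 8 * (1 + (Nat.log 2 n : ℝ)) / (n : ℝ) := by
      have : 8 * (1 + (Nat.log 2 n : ℝ)) / (n : ℝ) = 8 * ((1 + (Nat.log 2 n : ℝ)) / (n : ℝ)) := by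
        ring
      rw [this]
      linarith
    exact le_trans (csInf_le (bddBelow_frac H) hmem) (le_trans (min_le_right _ _) h3)
  have h5 : (fracExpThreshold H - 8 * (1 + (Nat.log 2 n : ℝ)) / (n : ℝ)) / 96 ≤ expThreshold H := by
    refine le_csInf ⟨1, one_mem_exp H⟩ (fun q hq => ?_)
    rw [div_le_iff₀ (by norm_num : (0 : ℝ) < 96)]
    have := key q hq
    linarith
  rw [div_le_iff₀ (by norm_num : (0 : ℝ) < 96)] at h5
  linarith

end Vale.Agent.Lib.Helper6.P064DForest
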